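import Vale.Agent.P088.R2.H464.EP.Frame
import Mathlib.Analysis.Calculus.InverseFunctionTheorem.ContDiff
import Mathlib.Analysis.Normed.Module.FiniteDimension

/-!
# P088: the smooth square root of a matrix near `1`

`rt S` is the positive root of `S` (`Gd S`: symmetric, form `≥ 1 / 4`).  It is a smooth function,
and the derivatives of `rt ∘ s` are bounded by the derivatives of `s`.
-/

open Set Filter
open scoped ContDiff Topology Matrix

noncomputable section

namespace Vale.Agent.P088.R2.H475.Z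

open Vale.Agent.P088.LR Vale.Agent.P088.HY Vale.Agent.P088.R2.H464 Vale.Agent.P088.R2.H464.Cu

variable {n : ℕ}

/-- Symmetric with a form `≥ 1 / 4`. -/
def Gd (S : Matrix (Fin n) (Fin n) ℝ) : Prop :=
  (∀ i j, S i j = S j i) ∧ ∀ v : V n, (1 / 2) ^ 2 * dt v v ≤ bf S v v

/-- The roots of `S`. -/
def IsRt (S F : Matrix (Fin n) (Fin n) ℝ) : Prop :=
  (∀ i j, F i j = F j i) ∧ F * F = S ∧ ∀ v : V n, 1 / 2 * dt v v ≤ bf F v v

open Classical in
/-- The positive root. -/
def rt (S : Matrix (Fin n) (Fin n) ℝ) : Matrix (Fin n) (Fin n) ℝ :=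
  if h : ∃ F, IsRt S F then h.choose else 1

theorem rt_is {S : Matrix (Fin n) (Fin n) ℝ} (h : Gd S) : IsRt S (rt S) := by
  have h1 : ∃ F, IsRt S F := Cu.root h.1 h.2
  unfold rt
  rw [dif_pos h1]
  exact h1.choose_spec

theorem IsRt.lip {S T F G : Matrix (Fin n) (Fin n) ℝ} (hF : IsRt S F) (hG : IsRt T G) {c : ℝ}
    (hc : 0 ≤ c) (h : ∀ i j, |S i j - T i j| ≤ c) (i j : Fin n) : |F i j - G i j| ≤ n * c :=
  root_ent hF.2.1 hG.2.1 hG.1 hF.2.2 hG.2.2 hc h i j

theorem IsRt.uniq {S F G : Matrix (Fin n) (Fin n) ℝ} (hF : IsRt S F) (hG : IsRt S G) : F = G := by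
  ext i j
  have := hF.lip hG le_rfl (fun i j => by simp) i j
  rw [mul_zero] at this
  exact sub_eq_zero.1 (abs_nonpos_iff.1 this)

theorem rt_eq {S F : Matrix (Fin n) (Fin n) ℝ} (h : Gd S) (hF : IsRt S F) : rt S = F :=
  (rt_is h).uniq hF

theorem rt_lip {S T : Matrix (Fin n) (Fin n) ℝ} (hS : Gd S) (hT : Gd T) {c : ℝ}
    (hc : 0 ≤ c) (h : ∀ i j, |S i j - T i j| ≤ c) (i j : Fin n) :
    |rt S i j - rt T i j| ≤ n * c := (rt_is hS).lip (rt_is hT) hc h i j

theorem gd_of {S : Matrix (Fin n) (Fin n) ℝ} {ε : ℝ} (hS : ∀ i j, S i j = S j i)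
    (hε : n * ε ≤ 1 / 2) (h : ∀ i j, |S i j - (1 : Matrix (Fin n) (Fin n) ℝ) i j| ≤ ε) : Gd S :=
  ⟨hS, form_ge hε h⟩

theorem is_one : IsRt (1 : Matrix (Fin n) (Fin n) ℝ) 1 := by
  refine ⟨fun i j => by simp only [Matrix.one_apply, eq_comm], mul_one 1, fun v => ?_⟩
  have : bf (1 : Matrix (Fin n) (Fin n) ℝ) v v = dt v v := by
    unfold bf dt
    simp [Matrix.one_apply]
  rw [this]
  have := dt_nonneg v
  linarith

/-- The root is near `1`. -/
theorem rt_near {S : Matrix (Fin n) (Fin n) ℝ} {ε : ℝ} (hS : Gd S)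
    (h : ∀ i j, |S i j - (1 : Matrix (Fin n) (Fin n) ℝ) i j| ≤ ε) (i j : Fin n) :
    |rt S i j - (1 : Matrix (Fin n) (Fin n) ℝ) i j| ≤ n * ε :=
  (rt_is hS).lip is_one ((abs_nonneg _).trans (h i j)) h i j

/-- The Lyapunov equation. -/
theorem lyap {F D T : Matrix (Fin n) (Fin n) ℝ} (sF : ∀ i j, F i j = F j i)
    (pF : ∀ v : V n, 1 / 2 * dt v v ≤ bf F v v) (h : D * F + F * D = T) : fb D D ≤ fb T T := by
  have e2 : fb D (F * D) = ∑ j, bf F (fun i => D i j) (fun i => D i j) := by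
    unfold fb bf
    simp only [Matrix.mul_apply, Finset.mul_sum]
    rw [Finset.sum_comm]
    refine Finset.sum_congr rfl fun j _ => Finset.sum_congr rfl fun i _ =>
      Finset.sum_congr rfl fun k _ => ?_
    ring
  have e3 : fb D (D * F) = ∑ i, bf F (D i) (D i) := by
    unfold fb bf
    simp only [Matrix.mul_apply, Finset.mul_sum]
    refine Finset.sum_congr rfl fun i _ => Finset.sum_congr rfl fun j _ =>
      Finset.sum_congr rfl fun k _ => ?_
    rw [sF k j]; ring
  have e4 : fb D D = ∑ j, dt (fun i => D i j) (fun i => D i j) := by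
    unfold fb dt
    rw [Finset.sum_comm]
  have e5 : fb D D = ∑ i, dt (D i) (D i) := rfl
  have h1 : 1 / 2 * fb D D ≤ fb D (F * D) := by
    rw [e2, e4, Finset.mul_sum]
    exact Finset.sum_le_sum fun j _ => pF _
  have h2 : 1 / 2 * fb D D ≤ fb D (D * F) := by
    rw [e3, e5, Finset.mul_sum]
    exact Finset.sum_le_sum fun j _ => pF _
  have e6 : fb D T = fb D (D * F) + fb D (F * D) := by
    rw [← h]
    unfold fb
    simp only [Matrix.add_apply, mul_add, Finset.sum_add_distrib]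
  have h3 : fb D D ≤ fb D T := by rw [e6]; linarith
  have h4 := fb_cs D T
  have h5 := fb_nonneg D
  have h6 := fb_nonneg T
  by_contra hc
  push Not at hc
  have h7 : fb D D ^ 2 ≤ fb D T ^ 2 := by
    apply pow_le_pow_left₀ h5 h3
  nlinarith

/-- The entries of the solution of the Lyapunov equation. -/
theorem lyap_ent {F D T : Matrix (Fin n) (Fin n) ℝ} (sF : ∀ i j, F i j = F j i)
    (pF : ∀ v : V n, 1 / 2 * dt v v ≤ bf F v v) (h : D * F + F * D = T) {c : ℝ} (hc : 0 ≤ c)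
    (hT : ∀ i j, |T i j| ≤ c) (i j : Fin n) : |D i j| ≤ n * c := by
  have h1 := lyap sF pF h
  have h2 := fb_le hT
  have h3 : D i j ^ 2 ≤ fb D D := ent_le i j
  have h4 : D i j ^ 2 ≤ (n * c) ^ 2 := by nlinarith
  exact abs_le_of_sq_le_sq h4 (by positivity)

/-! ## The square as a map -/

/-- A matrix as a family. -/
def un (S : Matrix (Fin n) (Fin n) ℝ) : Fin n → Fin n → ℝ := S

/-- The square. -/
def sq (X : Fin n → Fin n → ℝ) : Fin n → Fin n → ℝ := fun i j => ∑ k, X i k * X k j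

/-- The coordinates. -/
def cd (i j : Fin n) : (Fin n → Fin n → ℝ) →L[ℝ] ℝ :=
  (ContinuousLinearMap.proj j).comp (ContinuousLinearMap.proj (R := ℝ)
    (φ := fun _ : Fin n => Fin n → ℝ) i)

/-- The derivative of the square. -/
def dsq (X : Fin n → Fin n → ℝ) : (Fin n → Fin n → ℝ) →L[ℝ] (Fin n → Fin n → ℝ) :=
  ContinuousLinearMap.pi fun i => ContinuousLinearMap.pi fun j =>
    ∑ k, (X i k • cd k j + X k j • cd i k)

theorem sq_cd : ContDiff ℝ ∞ (sq (n := n)) := by
  refine contDiff_pi.2 fun i => contDiff_pi.2 fun j => ContDiff.sum fun k _ => ?_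
  exact (contDiff_apply_apply ℝ ℝ i k).mul (contDiff_apply_apply ℝ ℝ k j)

theorem sq_der (X : Fin n → Fin n → ℝ) : HasFDerivAt sq (dsq X) X := by
  refine hasFDerivAt_pi.2 fun i => hasFDerivAt_pi.2 fun j => ?_
  exact HasFDerivAt.fun_sum fun k _ => (cd i k).hasFDerivAt.mul (cd k j).hasFDerivAt

theorem dsq_apply (X H : Fin n → Fin n → ℝ) :
    dsq X H = (Matrix.of H * Matrix.of X + Matrix.of X * Matrix.of H : Matrix _ _ ℝ) := by
  ext i j
  simp only [dsq, ContinuousLinearMap.coe_pi', _root_.sum_apply, _root_.add_apply,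
    _root_.smul_apply, cd, ContinuousLinearMap.comp_apply, ContinuousLinearMap.proj_apply,
    smul_eq_mul, Matrix.add_apply, Matrix.mul_apply, Matrix.of_apply,
    ← Finset.sum_add_distrib]
  exact Finset.sum_congr rfl fun k _ => by ring

theorem dsq_inj {S : Matrix (Fin n) (Fin n) ℝ} {F : Fin n → Fin n → ℝ} (hF : IsRt S F) :
    Function.Injective (dsq F) := by
  rw [injective_iff_map_eq_zero]
  intro H hH
  have h1 := dsq_apply F H
  rw [hH] at h1
  have h2 : ∀ i j, |H i j| ≤ n * 0 := fun i j =>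
    lyap_ent (F := F) (D := H) (T := 0) hF.1 hF.2.2 h1.symm le_rfl (fun i j => by simp) i j
  funext i j
  have := h2 i j
  rw [mul_zero] at this
  exact abs_nonpos_iff.1 this

/-- The derivative as an equivalence. -/
theorem dsq_eqv {S : Matrix (Fin n) (Fin n) ℝ} {F : Fin n → Fin n → ℝ} (hF : IsRt S F) :
    ∃ L : (Fin n → Fin n → ℝ) ≃L[ℝ] (Fin n → Fin n → ℝ), (L : (Fin n → Fin n → ℝ) →L[ℝ] _) =
      dsq F := by
  have h := dsq_inj hF
  refine ⟨(LinearEquiv.ofInjectiveEndo (dsq F : (Fin n → Fin n → ℝ) →ₗ[ℝ] _)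
    h).toContinuousLinearEquiv, ?_⟩
  ext x
  rfl

section sm

variable {E : Type*} [NormedAddCommGroup E] [NormedSpace ℝ E] {U : Set E}
  {s : E → Matrix (Fin n) (Fin n) ℝ} {x : E}

/-- **The root is smooth.** -/
theorem rt_cda (hs : ∀ i j, ContDiffAt ℝ ∞ (fun y => s y i j) x) (hg : ∀ᶠ y in 𝓝 x, Gd (s y))
    (i j : Fin n) : ContDiffAt ℝ ∞ (fun y => rt (s y) i j) x := by
  have hx : Gd (s x) := hg.self_of_nhds
  set F₀ : Fin n → Fin n → ℝ := rt (s x) with hF₀
  have hF : IsRt (s x) F₀ := rt_is hx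
  obtain ⟨L, hL⟩ := dsq_eqv hF
  have hc : ContDiffAt ℝ ∞ (sq (n := n)) F₀ := sq_cd.contDiffAt
  have hd : HasFDerivAt (sq (n := n)) (L : (Fin n → Fin n → ℝ) →L[ℝ] _) F₀ := by
    rw [hL]; exact sq_der F₀
  have hn : (∞ : WithTop ℕ∞) ≠ 0 := by simp
  have sqe : ∀ F : Matrix (Fin n) (Fin n) ℝ, sq F = F * F := by
    intro F
    ext i j
    simp only [sq, Matrix.mul_apply]
  have s0 : sq F₀ = s x := by rw [sqe]; exact hF.2.1
  have hsm : ContDiffAt ℝ ∞ (fun y => un (s y)) x :=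
    contDiffAt_pi.2 fun i => contDiffAt_pi.2 fun j => hs i j
  have hinv := hc.to_localInverse hd hn
  rw [s0] at hinv
  have hcomp : ContDiffAt ℝ ∞ (fun y => hc.localInverse hd hn (un (s y))) x := hinv.comp x hsm
  -- the continuity of the root
  have hcont : Tendsto (fun y => un (rt (s y))) (𝓝 x) (𝓝 F₀) := by
    have h1 : Tendsto (fun y => un (s y)) (𝓝 x) (𝓝 (un (s x))) := hsm.continuousAt
    rw [tendsto_iff_norm_sub_tendsto_zero] at h1 ⊢
    have h2 : Tendsto (fun y => (n : ℝ) * ‖un (s y) - un (s x)‖) (𝓝 x) (𝓝 0) := by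
      simpa using h1.const_mul (n : ℝ)
    refine squeeze_zero' (Eventually.of_forall fun y => norm_nonneg _) ?_ h2
    filter_upwards [hg] with y hy
    rw [pi_norm_le_iff_of_nonneg (by positivity)]
    intro i
    rw [pi_norm_le_iff_of_nonneg (by positivity)]
    intro j
    have h3 : ∀ i j, |s y i j - s x i j| ≤ ‖un (s y) - un (s x)‖ := by
      intro i j
      have a1 := norm_le_pi_norm (un (s y) - un (s x)) i
      have a2 := norm_le_pi_norm ((un (s y) - un (s x)) i) j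
      exact a2.trans a1
    exact rt_lip hy hx (norm_nonneg _) h3 i j
  have hsrc := hc.mem_toOpenPartialHomeomorph_source hd hn
  have hopen := (hc.toOpenPartialHomeomorph (sq (n := n)) hd hn).open_source.mem_nhds hsrc
  have key : (fun y => un (rt (s y))) =ᶠ[𝓝 x]
      fun y => hc.localInverse hd hn (un (s y)) := by
    filter_upwards [hg, hcont.eventually hopen] with y hy hm
    have h1 := (hc.toOpenPartialHomeomorph (sq (n := n)) hd hn).left_inv hm
    have h2 : sq (un (rt (s y))) = un (s y) := by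
      have := sqe (rt (s y))
      rw [(rt_is hy).2.1] at this
      exact this
    have h3 : (hc.toOpenPartialHomeomorph (sq (n := n)) hd hn) (un (rt (s y))) = un (s y) := h2
    rw [h3] at h1
    exact h1.symm
  have h4 : ContDiffAt ℝ ∞ (fun y => un (rt (s y))) x :=
    hcomp.congr_of_eventuallyEq key
  exact contDiffAt_pi.1 (contDiffAt_pi.1 h4 i) j

theorem rt_cdo (hU : IsOpen U) (hs : ∀ i j, ContDiffOn ℝ ∞ (fun y => s y i j) U)
    (hg : ∀ y ∈ U, Gd (s y)) (i j : Fin n) : ContDiffOn ℝ ∞ (fun y => rt (s y) i j) U := by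
  intro x hx
  refine (rt_cda (fun i j => (hs i j x hx).contDiffAt (hU.mem_nhds hx)) ?_ i j).contDiffWithinAt
  filter_upwards [hU.mem_nhds hx] with y hy using hg y hy

end sm

end Vale.Agent.P088.R2.H475.Z
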