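import Vale.Agent.P088.R2.H475.Z.Frm
import Vale.Agent.P088.R2.H814.B2.KT2

/-!
# P088: smooth frames on pairs of points

`frx s a i z = rt (s z.1) a i`, `fry s a i z = rt (s z.2) a i`: bounds for the derivatives, and
the structure `Fr` of the two flat slots.
-/

open Set Filter
open scoped ContDiff Topology Matrix

noncomputable section

namespace Vale.Agent.P088.R2.H475.Z

open Vale.Agent.P088.LR Vale.Agent.P088.HY Vale.Agent.P088.R2.H464 Vale.Agent.P088.R2.H464.Cu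
  Vale.Agent.P088.R2.H961.GW Vale.Agent.P088.R2.H814.B2

variable {n : ℕ}

section dm

variable {E : Type*} [NormedAddCommGroup E] [NormedSpace ℝ E] {U : Set E}
  {A B s : E → Matrix (Fin n) (Fin n) ℝ} {x v w : E}

/-- The derivative of a matrix field. -/
def dm (A : E → Matrix (Fin n) (Fin n) ℝ) (v x : E) : Matrix (Fin n) (Fin n) ℝ :=
  Matrix.of fun i j => fderiv ℝ (fun y => A y i j) x v

theorem dm_apply (A : E → Matrix (Fin n) (Fin n) ℝ) (v x : E) (i j : Fin n) :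
    dm A v x i j = fderiv ℝ (fun y => A y i j) x v := rfl

theorem dm_congr (h : A =ᶠ[𝓝 x] B) (v : E) : dm A v x = dm B v x := by
  ext i j
  rw [dm_apply, dm_apply]
  have : (fun y => A y i j) =ᶠ[𝓝 x] fun y => B y i j := by
    filter_upwards [h] with y hy using by rw [hy]
  rw [this.fderiv_eq]

theorem dm_mul (hA : ∀ i j, DifferentiableAt ℝ (fun y => A y i j) x)
    (hB : ∀ i j, DifferentiableAt ℝ (fun y => B y i j) x) (v : E) :
    dm (fun y => A y * B y) v x = dm A v x * B x + A x * dm B v x := by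
  ext i j
  have e : (fun y => (A y * B y) i j) = fun y => ∑ k, A y i k * B y k j := by
    funext y; rw [Matrix.mul_apply]
  have e2 : fderiv ℝ (fun y => ∑ k, A y i k * B y k j) x =
      ∑ k, fderiv ℝ (fun y => A y i k * B y k j) x :=
    fderiv_fun_sum fun k _ => (hA i k).mul (hB k j)
  rw [dm_apply, e, e2]
  simp only [_root_.sum_apply, Matrix.add_apply, Matrix.mul_apply, ← Finset.sum_add_distrib]
  refine Finset.sum_congr rfl fun k _ => ?_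
  rw [fderiv_fun_mul (hA i k) (hB k j), dm_apply, dm_apply]
  simp only [_root_.add_apply, _root_.smul_apply, smul_eq_mul]
  ring

theorem dm_add (hA : ∀ i j, DifferentiableAt ℝ (fun y => A y i j) x)
    (hB : ∀ i j, DifferentiableAt ℝ (fun y => B y i j) x) (v : E) :
    dm (fun y => A y + B y) v x = dm A v x + dm B v x := by
  ext i j
  have e : (fun y => (A y + B y) i j) = fun y => A y i j + B y i j := by
    funext y; rw [Matrix.add_apply]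
  rw [dm_apply, e, fderiv_fun_add (hA i j) (hB i j), Matrix.add_apply, dm_apply, dm_apply]
  simp only [_root_.add_apply]

theorem mul_ent {P Q : Matrix (Fin n) (Fin n) ℝ} {p q : ℝ} (hp : ∀ i j, |P i j| ≤ p)
    (hq : ∀ i j, |Q i j| ≤ q) (i j : Fin n) : |(P * Q) i j| ≤ n * (p * q) := by
  rw [Matrix.mul_apply]
  refine sum_le1 fun k => ?_
  rw [abs_mul]
  have h1 := hp i k
  have h2 := hq k j
  exact mul_le_mul h1 h2 (abs_nonneg _) ((abs_nonneg _).trans h1)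

theorem dff (hU : IsOpen U) {f : E → ℝ} (hf : ContDiffOn ℝ ∞ f U) (hx : x ∈ U) :
    DifferentiableAt ℝ f x := ((hf x hx).contDiffAt (hU.mem_nhds hx)).differentiableAt (by simp)

theorem cdo_fd (hU : IsOpen U) {f : E → ℝ} (hf : ContDiffOn ℝ ∞ f U) (v : E) :
    ContDiffOn ℝ ∞ (fun y => fderiv ℝ f y v) U := by
  have h : ContDiffOn ℝ ∞ (fderiv ℝ f) U := hf.fderiv_of_isOpen hU (by norm_num)
  exact h.clm_apply contDiffOn_const

theorem dm_cdo (hU : IsOpen U) (hs : ∀ i j, ContDiffOn ℝ ∞ (fun y => s y i j) U) (v : E)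
    (i j : Fin n) : ContDiffOn ℝ ∞ (fun y => dm s v y i j) U := cdo_fd hU (hs i j) v

/-- The first derivative of the root. -/
theorem rt_e1 (hU : IsOpen U) (hs : ∀ i j, ContDiffOn ℝ ∞ (fun y => s y i j) U)
    (hg : ∀ y ∈ U, Gd (s y)) (hx : x ∈ U) (v : E) :
    dm (fun y => rt (s y)) v x * rt (s x) + rt (s x) * dm (fun y => rt (s y)) v x =
      dm s v x := by
  have hr := rt_cdo hU hs hg
  rw [← dm_mul (fun i j => dff hU (hr i j) hx) (fun i j => dff hU (hr i j) hx)]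
  refine dm_congr ?_ v
  filter_upwards [hU.mem_nhds hx] with y hy using (rt_is (hg y hy)).2.1

theorem rt_e2 (hU : IsOpen U) (hs : ∀ i j, ContDiffOn ℝ ∞ (fun y => s y i j) U)
    (hg : ∀ y ∈ U, Gd (s y)) (hx : x ∈ U) (v w : E) :
    dm (dm (fun y => rt (s y)) v) w x * rt (s x) + rt (s x) * dm (dm (fun y => rt (s y)) v) w x =
      dm (dm s v) w x - dm (fun y => rt (s y)) v x * dm (fun y => rt (s y)) w x -
        dm (fun y => rt (s y)) w x * dm (fun y => rt (s y)) v x := by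
  have hr := rt_cdo hU hs hg
  have hv := dm_cdo hU hr v
  have a1 : ∀ i j, DifferentiableAt ℝ (fun y => rt (s y) i j) x := fun i j => dff hU (hr i j) hx
  have a2 : ∀ i j, DifferentiableAt ℝ (fun y => dm (fun y => rt (s y)) v y i j) x :=
    fun i j => dff hU (hv i j) hx
  have b1 : ∀ i j, DifferentiableAt ℝ
      (fun y => (dm (fun y => rt (s y)) v y * rt (s y)) i j) x := by
    intro i j
    simp only [Matrix.mul_apply]
    exact DifferentiableAt.fun_sum fun k _ => (a2 i k).mul (a1 k j)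
  have b2 : ∀ i j, DifferentiableAt ℝ
      (fun y => (rt (s y) * dm (fun y => rt (s y)) v y) i j) x := by
    intro i j
    simp only [Matrix.mul_apply]
    exact DifferentiableAt.fun_sum fun k _ => (a1 i k).mul (a2 k j)
  have e1 : dm (fun y => dm (fun y => rt (s y)) v y * rt (s y) +
      rt (s y) * dm (fun y => rt (s y)) v y) w x = dm (dm s v) w x := by
    refine dm_congr ?_ w
    filter_upwards [hU.mem_nhds hx] with y hy using rt_e1 hU hs hg hy v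
  rw [dm_add b1 b2, dm_mul a2 a1, dm_mul a1 a2] at e1
  rw [← e1]
  have e2 : (dm fun y => dm (fun y => rt (s y)) v y) = dm (dm (fun y => rt (s y)) v) := rfl
  rw [e2]
  abel

theorem rt_d1 (hU : IsOpen U) (hs : ∀ i j, ContDiffOn ℝ ∞ (fun y => s y i j) U)
    (hg : ∀ y ∈ U, Gd (s y)) (hx : x ∈ U) {δ : ℝ} (h : ∀ i j, |dm s v x i j| ≤ δ)
    (i j : Fin n) : |dm (fun y => rt (s y)) v x i j| ≤ n * δ :=
  lyap_ent (rt_is (hg x hx)).1 (rt_is (hg x hx)).2.2 (rt_e1 hU hs hg hx v)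
    ((abs_nonneg _).trans (h i j)) h i j

theorem rt_d2 (hU : IsOpen U) (hs : ∀ i j, ContDiffOn ℝ ∞ (fun y => s y i j) U)
    (hg : ∀ y ∈ U, Gd (s y)) (hx : x ∈ U) {δ₁ δ₂ : ℝ} (h1 : ∀ i j, |dm s v x i j| ≤ δ₁)
    (h2 : ∀ i j, |dm s w x i j| ≤ δ₁) (h3 : ∀ i j, |dm (dm s v) w x i j| ≤ δ₂)
    (i j : Fin n) : |dm (dm (fun y => rt (s y)) v) w x i j| ≤
      n * (δ₂ + 2 * n ^ 3 * δ₁ ^ 2) := by
  have d1 := rt_d1 hU hs hg hx h1
  have d2 := rt_d1 hU hs hg hx h2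
  have p1 : 0 ≤ δ₁ := (abs_nonneg _).trans (h1 i j)
  have p2 : 0 ≤ δ₂ := (abs_nonneg _).trans (h3 i j)
  refine lyap_ent (rt_is (hg x hx)).1 (rt_is (hg x hx)).2.2 (rt_e2 hU hs hg hx v w)
    (by positivity) ?_ i j
  intro i j
  have m1 := mul_ent d1 d2 i j
  have m2 := mul_ent d2 d1 i j
  have m3 := h3 i j
  rw [Matrix.sub_apply, Matrix.sub_apply]
  have e : (n : ℝ) * (n * δ₁ * (n * δ₁)) = n ^ 3 * δ₁ ^ 2 := by ring
  rw [e] at m1 m2
  rw [abs_le] at m1 m2 m3 ⊢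
  constructor <;> linarith [m1.1, m1.2, m2.1, m2.2, m3.1, m3.2]

end dm

/-! ## Pairs of points -/

/-- The frame of the first variable. -/
def frx (s : MF n) (a i : Fin n) (z : VV n) : ℝ := rt (s z.1) a i

/-- The frame of the second variable. -/
def fry (s : MF n) (a i : Fin n) (z : VV n) : ℝ := rt (s z.2) a i

section nr

variable {O O' : Set (V n)} {ε δ₁ δ₂ ε' δ₁' δ₂' h₀ h₁ : ℝ} {r : V n → ℝ} {s s₁ s₂ : MF n}
  {z : VV n} {x : V n}

theorem nr_gd (h : Nr O ε δ₁ δ₂ s) (hε : n * ε ≤ 1 / 2) (hx : x ∈ O) : Gd (s x) :=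
  gd_of (h.sy x) hε (h.b0 x hx)

/-- The frame is the root of 464's `Nr.root`. -/
theorem nr_is (h : Nr O ε δ₁ δ₂ s) (hε : n * ε ≤ 1 / 2) (hx : x ∈ O) : IsRt (s x) (rt (s x)) :=
  rt_is (nr_gd h hε hx)

theorem rt_cd (hO : IsOpen O) (h : Nr O ε δ₁ δ₂ s) (hε : n * ε ≤ 1 / 2) (i j : Fin n) :
    ContDiffOn ℝ ∞ (fun x => rt (s x) i j) O :=
  rt_cdo hO h.sm (fun _ hy => nr_gd h hε hy) i j

theorem pd_rt (hO : IsOpen O) (h : Nr O ε δ₁ δ₂ s) (hε : n * ε ≤ 1 / 2) (hx : x ∈ O)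
    (k i j : Fin n) : |pd k (fun x => rt (s x) i j) x| ≤ n * δ₁ :=
  rt_d1 (v := Pi.single k 1) hO h.sm (fun _ hy => nr_gd h hε hy) hx
    (fun i j => h.b1 x hx k i j) i j

theorem pd2_rt (hO : IsOpen O) (h : Nr O ε δ₁ δ₂ s) (hε : n * ε ≤ 1 / 2) (hx : x ∈ O)
    (l k i j : Fin n) : |pd l (pd k (fun x => rt (s x) i j)) x| ≤
      n * (δ₂ + 2 * n ^ 3 * δ₁ ^ 2) :=
  rt_d2 (v := Pi.single k 1) (w := Pi.single l 1) hO h.sm (fun _ hy => nr_gd h hε hy) hx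
    (fun i j => h.b1 x hx k i j) (fun i j => h.b1 x hx l i j)
    (fun i j => h.b2 x hx l k i j) i j

theorem rt_one (h : Nr O ε δ₁ δ₂ s) (hε : n * ε ≤ 1 / 2) (hx : x ∈ O) (i j : Fin n) :
    |rt (s x) i j - (1 : Matrix (Fin n) (Fin n) ℝ) i j| ≤ n * ε :=
  rt_near (nr_gd h hε hx) (h.b0 x hx) i j

theorem rt_le2 (h : Nr O ε δ₁ δ₂ s) (hε : n * ε ≤ 1 / 2) (hx : x ∈ O) (i j : Fin n) :
    |rt (s x) i j| ≤ 2 := by
  have h1 := rt_one h hε hx i j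
  have h2 : |(1 : Matrix (Fin n) (Fin n) ℝ) i j| ≤ 1 := by
    rw [Matrix.one_apply]; split_ifs <;> simp
  rw [abs_le] at h1 h2 ⊢
  constructor <;> linarith [h1.1, h1.2, h2.1, h2.2]

/-- The difference of two roots at two points. -/
theorem rt_dif (hO : IsOpen O) (hc : Convex ℝ O) (n₁ : Nr O ε δ₁ δ₂ s₁)
    (n₂ : Nr O ε' δ₁' δ₂' s₂) (hh : Dst O h₀ h₁ s₁ s₂) (hε : n * ε ≤ 1 / 2)
    (hε' : n * ε' ≤ 1 / 2) (hδ : 0 ≤ δ₁) (hh0 : 0 ≤ h₀) {x y : V n} (hx : x ∈ O) (hy : y ∈ O)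
    (i j : Fin n) : |rt (s₁ x) i j - rt (s₂ y) i j| ≤ n * (n * δ₁ * ‖x - y‖ + h₀) := by
  refine rt_lip (nr_gd n₁ hε hx) (nr_gd n₂ hε' hy) (by positivity) ?_ i j
  intro i j
  have a1 := n₁.mv hO hc hδ hx hy i j
  have a2 := hh.b0 y hy i j
  have e : s₁ x i j - s₂ y i j = (s₁ x i j - s₁ y i j) + (s₁ y i j - s₂ y i j) := by ring
  rw [e]
  exact (abs_add_le _ _).trans (add_le_add a1 a2)

/-! ## The slots -/

theorem sm_frx (hO : IsOpen O) (h : Nr O ε δ₁ δ₂ s) (hε : n * ε ≤ 1 / 2) (a i : Fin n) :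
    Sm (O ×ˢ O') (frx s a i) := sm_fst Subset.rfl (rt_cd hO h hε a i)

theorem sm_fry (hO : IsOpen O) (h : Nr O ε δ₁ δ₂ s) (hε : n * ε ≤ 1 / 2) (a i : Fin n) :
    Sm (O' ×ˢ O) (fry s a i) := sm_snd Subset.rfl (rt_cd hO h hε a i)

theorem Dx_frx (hO : IsOpen O) (h : Nr O ε δ₁ δ₂ s) (hε : n * ε ≤ 1 / 2) (hz : z.1 ∈ O)
    (a i k : Fin n) : (slx (fun _ => 1) s₁).D k (frx s a i) z =
      pd k (fun x => rt (s x) a i) z.1 := by
  have := Dx_fst (r := fun _ => 1) (s := s₁) (df_of hO (rt_cd hO h hε a i) hz) k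
  rw [one_mul] at this
  exact this

theorem Dy_fry (hO : IsOpen O) (h : Nr O ε δ₁ δ₂ s) (hε : n * ε ≤ 1 / 2) (hz : z.2 ∈ O)
    (a i k : Fin n) : (sly (fun _ => 1) s₁).D k (fry s a i) z =
      pd k (fun x => rt (s x) a i) z.2 := by
  have := Dy_snd (r := fun _ => 1) (s := s₁) (df_of hO (rt_cd hO h hε a i) hz) k
  rw [one_mul] at this
  exact this

theorem Dy_frx (hO : IsOpen O) (h : Nr O ε δ₁ δ₂ s) (hε : n * ε ≤ 1 / 2) (hz : z.1 ∈ O)
    (a i k : Fin n) : (sly r s₂).D k (frx s a i) z = 0 :=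
  Dy_fst (df_of hO (rt_cd hO h hε a i) hz) k

theorem Dx_fry (hO : IsOpen O) (h : Nr O ε δ₁ δ₂ s) (hε : n * ε ≤ 1 / 2) (hz : z.2 ∈ O)
    (a i k : Fin n) : (slx r s₁).D k (fry s a i) z = 0 :=
  Dx_snd (df_of hO (rt_cd hO h hε a i) hz) k

theorem Dx_frx_le (hO : IsOpen O) (h : Nr O ε δ₁ δ₂ s) (hε : n * ε ≤ 1 / 2) (hz : z.1 ∈ O)
    (a i k : Fin n) : |(slx (fun _ => 1) s₁).D k (frx s a i) z| ≤ n * δ₁ := by
  rw [Dx_frx hO h hε hz]
  exact pd_rt hO h hε hz k a i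

theorem Dy_fry_le (hO : IsOpen O) (h : Nr O ε δ₁ δ₂ s) (hε : n * ε ≤ 1 / 2) (hz : z.2 ∈ O)
    (a i k : Fin n) : |(sly (fun _ => 1) s₁).D k (fry s a i) z| ≤ n * δ₁ := by
  rw [Dy_fry hO h hε hz]
  exact pd_rt hO h hε hz k a i

theorem DDx_frx (hO : IsOpen O) (h : Nr O ε δ₁ δ₂ s) (hε : n * ε ≤ 1 / 2) (hz : z.1 ∈ O)
    (a i k l : Fin n) : (slx (fun _ => 1) s₁).D l ((slx (fun _ => 1) s₁).D k (frx s a i)) z =
      pd l (pd k (fun x => rt (s x) a i)) z.1 := by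
  have hU : IsOpen (O ×ˢ (univ : Set (V n))) := hO.prod isOpen_univ
  have e : ∀ z ∈ O ×ˢ (univ : Set (V n)), (slx (fun _ => 1) s₁).D k (frx s a i) z =
      pd k (fun x => rt (s x) a i) z.1 := fun z hz => Dx_frx hO h hε hz.1 a i k
  rw [D_congr _ hU e l ⟨hz, mem_univ _⟩]
  have := Dx_fst (r := fun _ => 1) (s := s₁)
    (df_of hO (sm_pd hO (rt_cd hO h hε a i) k) hz) l
  rw [one_mul] at this
  exact this

theorem DDy_fry (hO : IsOpen O) (h : Nr O ε δ₁ δ₂ s) (hε : n * ε ≤ 1 / 2) (hz : z.2 ∈ O)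
    (a i k l : Fin n) : (sly (fun _ => 1) s₁).D l ((sly (fun _ => 1) s₁).D k (fry s a i)) z =
      pd l (pd k (fun x => rt (s x) a i)) z.2 := by
  have hU : IsOpen ((univ : Set (V n)) ×ˢ O) := isOpen_univ.prod hO
  have e : ∀ z ∈ (univ : Set (V n)) ×ˢ O, (sly (fun _ => 1) s₁).D k (fry s a i) z =
      pd k (fun x => rt (s x) a i) z.2 := fun z hz => Dy_fry hO h hε hz.2 a i k
  rw [D_congr _ hU e l ⟨mem_univ _, hz⟩]
  have := Dy_snd (r := fun _ => 1) (s := s₁)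
    (df_of hO (sm_pd hO (rt_cd hO h hε a i) k) hz) l
  rw [one_mul] at this
  exact this

theorem DDx_frx_le (hO : IsOpen O) (h : Nr O ε δ₁ δ₂ s) (hε : n * ε ≤ 1 / 2) (hz : z.1 ∈ O)
    (a i k l : Fin n) : |(slx (fun _ => 1) s₁).D l ((slx (fun _ => 1) s₁).D k (frx s a i)) z| ≤
      n * (δ₂ + 2 * n ^ 3 * δ₁ ^ 2) := by
  rw [DDx_frx hO h hε hz]
  exact pd2_rt hO h hε hz l k a i

theorem DDy_fry_le (hO : IsOpen O) (h : Nr O ε δ₁ δ₂ s) (hε : n * ε ≤ 1 / 2) (hz : z.2 ∈ O)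
    (a i k l : Fin n) : |(sly (fun _ => 1) s₁).D l ((sly (fun _ => 1) s₁).D k (fry s a i)) z| ≤
      n * (δ₂ + 2 * n ^ 3 * δ₁ ^ 2) := by
  rw [DDy_fry hO h hε hz]
  exact pd2_rt hO h hε hz l k a i

/-- The divergence of the frame vectors. -/
theorem flx_le (hO : IsOpen O) (h : Nr O ε δ₁ δ₂ s) (hε : n * ε ≤ 1 / 2) (hz : z.1 ∈ O)
    (a : Fin n) : |fl (slx (fun _ => 1) s₁) (frx s) a z| ≤ n ^ 2 * δ₁ := by
  unfold fl
  have hk : ∀ i : Fin n, (slx (fun _ => 1) s₁).k i z = 0 := fun i => by simp [slx, pd]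
  have : |∑ i, ((slx (fun _ => 1) s₁).D i (frx s a i) z +
      (slx (fun _ => 1) s₁).k i z * frx s a i z)| ≤ n * (n * δ₁) := by
    refine sum_le1 fun i => ?_
    rw [hk i, zero_mul, add_zero]
    exact Dx_frx_le hO h hε hz a i i
  exact this.trans (le_of_eq (by ring))

theorem fly_le (hO : IsOpen O) (h : Nr O ε δ₁ δ₂ s) (hε : n * ε ≤ 1 / 2) (hz : z.2 ∈ O)
    (a : Fin n) : |fl (sly (fun _ => 1) s₁) (fry s) a z| ≤ n ^ 2 * δ₁ := by
  unfold fl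
  have hk : ∀ i : Fin n, (sly (fun _ => 1) s₁).k i z = 0 := fun i => by simp [sly, pd]
  have : |∑ i, ((sly (fun _ => 1) s₁).D i (fry s a i) z +
      (sly (fun _ => 1) s₁).k i z * fry s a i z)| ≤ n * (n * δ₁) := by
    refine sum_le1 fun i => ?_
    rw [hk i, zero_mul, add_zero]
    exact Dy_fry_le hO h hε hz a i i
  exact this.trans (le_of_eq (by ring))

theorem nr_fr0 (hO : IsOpen O) (h : Nr O ε δ₁ δ₂ s) : Fr0 (fun _ => 1) s O where
  op := hO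
  rp _ _ := one_pos
  rs := contDiffOn_const
  ss := h.sm
  sy := h.sy

theorem rt_fp (h : Nr O ε δ₁ δ₂ s) (hε : n * ε ≤ 1 / 2) (hx : x ∈ O) (i j : Fin n) :
    ∑ a, rt (s x) a i * rt (s x) a j = s x i j := by
  have h1 := nr_is h hε hx
  have h2 := congrFun (congrFun h1.2.1 i) j
  rw [Matrix.mul_apply] at h2
  rw [← h2]
  exact Finset.sum_congr rfl fun a _ => by rw [h1.1 a i]

/-- **The frames of zone II.** -/
theorem frII (hO : IsOpen O) (hO' : IsOpen O') (n₁ : Nr O ε δ₁ δ₂ s₁) (n₂ : Nr O' ε' δ₁' δ₂' s₂)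
    (hε : n * ε ≤ 1 / 2) (hε' : n * ε' ≤ 1 / 2) :
    H814.B2.Fr (slx (fun _ => 1) s₁) (sly (fun _ => 1) s₂) (frx s₁) (fry s₂) (O ×ˢ O')
      (fun _ => 1) where
  ok := by
    have := okx (nr_fr0 hO n₁) (nr_fr0 hO' n₂) (hO.prod hO') Subset.rfl
    rwa [tht_one] at this
  ot := by
    have := oky (nr_fr0 hO n₁) (nr_fr0 hO' n₂) (hO.prod hO') Subset.rfl
    rwa [tht_one] at this
  cm := cmm (nr_fr0 hO n₁) (nr_fr0 hO' n₂) (hO.prod hO') Subset.rfl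
  hp := sm_frx hO n₁ hε
  hq := sm_fry hO' n₂ hε'
  hp0 z hz a i k := Dy_frx hO n₁ hε hz.1 a i k
  hq0 z hz a k i := Dx_fry hO' n₂ hε' hz.2 a k i
  fp z hz i j := rt_fp n₁ hε hz.1 i j
  fq z hz i j := rt_fp n₂ hε' hz.2 i j

/-- The frames restrict to open subsets. -/
theorem Fr.mono {E ι κ α : Type*} [NormedAddCommGroup E] [NormedSpace ℝ E] [Fintype ι]
    [Fintype κ] [Fintype α] {σ : Sl E ι} {τ : Sl E κ} {p : α → ι → E → ℝ} {q : α → κ → E → ℝ}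
    {U W : Set E} {θ : E → ℝ} (F : H814.B2.Fr σ τ p q U θ) (hs : W ⊆ U)
    (o1 : σ.Ok W θ) (o2 : τ.Ok W θ) (cm : Cm σ τ W) : H814.B2.Fr σ τ p q W θ where
  ok := o1
  ot := o2
  cm := cm
  hp a i := (F.hp a i).mono hs
  hq a i := (F.hq a i).mono hs
  hp0 z hz := F.hp0 z (hs hz)
  hq0 z hz := F.hq0 z (hs hz)
  fp z hz := F.fp z (hs hz)
  fq z hz := F.fq z (hs hz)

/-- **The frames of zone II on an open set of pairs.** -/
theorem frIIU (hO : IsOpen O) (hO' : IsOpen O') (n₁ : Nr O ε δ₁ δ₂ s₁)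
    (n₂ : Nr O' ε' δ₁' δ₂' s₂) (hε : n * ε ≤ 1 / 2) (hε' : n * ε' ≤ 1 / 2) {U : Set (VV n)}
    (hU : IsOpen U) (hs : U ⊆ O ×ˢ O') :
    H814.B2.Fr (slx (fun _ => 1) s₁) (sly (fun _ => 1) s₂) (frx s₁) (fry s₂) U
      (fun _ => 1) := by
  refine Fr.mono (frII hO hO' n₁ n₂ hε hε') hs ?_ ?_ ?_
  · have := okx (nr_fr0 hO n₁) (nr_fr0 hO' n₂) hU hs
    rwa [tht_one] at this
  · have := oky (nr_fr0 hO n₁) (nr_fr0 hO' n₂) hU hs
    rwa [tht_one] at this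
  · exact cmm (nr_fr0 hO n₁) (nr_fr0 hO' n₂) hU hs

/-- The frames are near `1`. -/
theorem frx_one (h : Nr O ε δ₁ δ₂ s) (hε : n * ε ≤ 1 / 2) (hz : z.1 ∈ O) (a i : Fin n) :
    |frx s a i z - (1 : Matrix (Fin n) (Fin n) ℝ) a i| ≤ n * ε := rt_one h hε hz a i

theorem fry_one (h : Nr O ε δ₁ δ₂ s) (hε : n * ε ≤ 1 / 2) (hz : z.2 ∈ O) (a i : Fin n) :
    |fry s a i z - (1 : Matrix (Fin n) (Fin n) ℝ) a i| ≤ n * ε := rt_one h hε hz a i

/-- The difference of the frames. -/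
theorem fr_dif (hO : IsOpen O) (hc : Convex ℝ O) (n₁ : Nr O ε δ₁ δ₂ s₁)
    (n₂ : Nr O ε' δ₁' δ₂' s₂) (hh : Dst O h₀ h₁ s₁ s₂) (hε : n * ε ≤ 1 / 2)
    (hε' : n * ε' ≤ 1 / 2) (hδ : 0 ≤ δ₁) (hh0 : 0 ≤ h₀) (hz : z ∈ O ×ˢ O) (a i : Fin n) :
    |frx s₁ a i z - fry s₂ a i z| ≤ n * (n * δ₁ * ‖z.1 - z.2‖ + h₀) :=
  rt_dif hO hc n₁ n₂ hh hε hε' hδ hh0 hz.1 hz.2 a i

end nr

end Vale.Agent.P088.R2.H475.Z
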