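import Vale.Agent.P088.R2.H814.B2.Kp2
import Mathlib.Analysis.SpecialFunctions.Sqrt

/-!
# P088, zone II: the function `ζ = (L g)^(1/2)`, `g = 4 E / (1 + m)`, `E = e^u`, `m = E s`, `s = r²`
-/

open Set Filter
open scoped ContDiff Topology

noncomputable section

namespace Vale.Agent.P088.R2.H475.Z

open Vale.Agent.P088.R2.H961.GW Vale.Agent.P088.R2.H814.An

variable {E ι κ : Type*} [NormedAddCommGroup E] [NormedSpace ℝ E] [Fintype ι] [Fintype κ]
  {U : Set E} {L A r : ℝ} {u s : E → ℝ} {z : E} {σ τ : Sl E ι}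

/-- `g = 4 E / (1 + m)`. -/
def gII (u s : E → ℝ) (z : E) : ℝ := 4 * Real.exp (u z) / (1 + Real.exp (u z) * s z)

/-- `ζ = (L g)^(1/2)`. -/
def zeII (L : ℝ) (u s : E → ℝ) (z : E) : ℝ := √(L * gII u s z)

omit [NormedAddCommGroup E] [NormedSpace ℝ E] in
theorem den_pos (h : 0 ≤ s z) : 0 < 1 + Real.exp (u z) * s z := by
  have := Real.exp_pos (u z)
  positivity

omit [NormedAddCommGroup E] [NormedSpace ℝ E] in
theorem gII_pos (h : 0 ≤ s z) : 0 < gII u s z := by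
  have h1 := den_pos (u := u) h
  have := Real.exp_pos (u z)
  unfold gII
  positivity

omit [NormedAddCommGroup E] [NormedSpace ℝ E] in
theorem zeII_sq (hL : 0 ≤ L) (h : 0 ≤ s z) : zeII L u s z ^ 2 = L * gII u s z :=
  Real.sq_sqrt (mul_nonneg hL (gII_pos h).le)

omit [NormedAddCommGroup E] [NormedSpace ℝ E] in
/-- `g s = 4 m / (1 + m)`. -/
theorem gII_mul (h : 0 ≤ s z) : gII u s z * s z =
    4 * (Real.exp (u z) * s z / (1 + Real.exp (u z) * s z)) := by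
  have h1 := (den_pos (u := u) h).ne'
  unfold gII
  field_simp

omit [NormedAddCommGroup E] [NormedSpace ℝ E] in
theorem gII_le (h : 0 ≤ s z) : gII u s z * s z ≤ 4 := by
  have h1 := den_pos (u := u) h
  rw [gII_mul h]
  have : Real.exp (u z) * s z / (1 + Real.exp (u z) * s z) ≤ 1 := by
    rw [div_le_one h1]; linarith
  linarith

omit [NormedAddCommGroup E] [NormedSpace ℝ E] in
theorem gII_ge (h : 0 ≤ s z) (hm : 1 ≤ Real.exp (u z) * s z) : 2 ≤ gII u s z * s z := by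
  have h1 := den_pos (u := u) h
  rw [gII_mul h]
  have : 1 / 2 ≤ Real.exp (u z) * s z / (1 + Real.exp (u z) * s z) := by
    rw [le_div_iff₀ h1]; linarith
  linarith

theorem gII_sm (hu : Sm U u) (hs : Sm U s) (h0 : ∀ z ∈ U, 0 ≤ s z) : Sm U (gII u s) := by
  unfold gII
  refine ContDiffOn.div (contDiffOn_const.mul hu.exp) (contDiffOn_const.add (hu.exp.mul hs)) ?_
  intro z hz
  exact (den_pos (h0 z hz)).ne'

theorem zeII_sm (hU : IsOpen U) (hL : 0 < L) (hu : Sm U u) (hs : Sm U s)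
    (h0 : ∀ z ∈ U, 0 ≤ s z) : Sm U (zeII L u s) := by
  intro z hz
  have h1 : ContDiffAt ℝ ∞ (fun z => L * gII u s z) z :=
    Sm.at hU (contDiffOn_const.mul (gII_sm hu hs h0)) hz
  exact (h1.sqrt (mul_pos hL (gII_pos (h0 z hz))).ne').contDiffWithinAt

/-- The derivative of `g`. -/
theorem gII_D (hU : IsOpen U) (hu : Sm U u) (hs : Sm U s) (h0 : ∀ z ∈ U, 0 ≤ s z) (hz : z ∈ U)
    (σ : Sl E κ) (i : κ) : σ.D i (gII u s) z = gII u s z *
      ((σ.D i u z - Real.exp (u z) * σ.D i s z) / (1 + Real.exp (u z) * s z)) := by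
  have hd := (den_pos (u := u) (h0 z hz)).ne'
  have se : Sm U fun z => Real.exp (u z) := hu.exp
  have eE : σ.D i (fun z => Real.exp (u z)) z = Real.exp (u z) * σ.D i u z := by
    simp only [Sl.D]
    rw [(hu.diff hU hz).hasFDerivAt.exp.fderiv]
    simp only [_root_.smul_apply, smul_eq_mul]
    ring
  have h1 := D_mul σ hU (gII_sm hu hs h0) (contDiffOn_const.add (se.mul hs) :
    Sm U fun z => 1 + Real.exp (u z) * s z) i hz
  have h2 : σ.D i (fun z => gII u s z * (1 + Real.exp (u z) * s z)) z =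
      σ.D i (fun z => 4 * Real.exp (u z)) z := by
    refine D_congr σ hU (fun w hw => ?_) i hz
    have := (den_pos (u := u) (h0 w hw)).ne'
    unfold gII
    field_simp
  rw [h2, D_cmul σ hU 4 se i hz, D_add σ hU contDiffOn_const (se.mul hs) i hz, D_const,
    D_mul σ hU se hs i hz, eE, zero_add] at h1
  have h3 : gII u s z * (1 + Real.exp (u z) * s z) = 4 * Real.exp (u z) := by
    unfold gII
    field_simp
  rw [mul_div_assoc', eq_div_iff hd]
  linear_combination -h1 - σ.D i u z * h3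

/-- The derivative of `ζ`. -/
theorem zeII_D (hU : IsOpen U) (hL : 0 < L) (hu : Sm U u) (hs : Sm U s)
    (h0 : ∀ z ∈ U, 0 ≤ s z) (hz : z ∈ U) (σ : Sl E κ) (i : κ) :
    σ.D i (zeII L u s) z = 1 / 2 * zeII L u s z *
      ((σ.D i u z - Real.exp (u z) * σ.D i s z) / (1 + Real.exp (u z) * s z)) := by
  have hp : 0 < zeII L u s z := Real.sqrt_pos.2 (mul_pos hL (gII_pos (h0 z hz)))
  have h1 := D_mul σ hU (zeII_sm hU hL hu hs h0) (zeII_sm hU hL hu hs h0) i hz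
  have h2 : σ.D i (fun z => zeII L u s z * zeII L u s z) z =
      σ.D i (fun z => L * gII u s z) z := by
    refine D_congr σ hU (fun w hw => ?_) i hz
    rw [← pow_two]
    exact zeII_sq hL.le (h0 w hw)
  rw [h2, D_cmul σ hU L (gII_sm hu hs h0) i hz, gII_D hU hu hs h0 hz] at h1
  have h3 := zeII_sq (u := u) hL.le (h0 z hz)
  have h4 : zeII L u s z * (2 * σ.D i (zeII L u s) z) = zeII L u s z * (zeII L u s z *
      ((σ.D i u z - Real.exp (u z) * σ.D i s z) / (1 + Real.exp (u z) * s z))) := by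
    calc _ = σ.D i (zeII L u s) z * zeII L u s z + zeII L u s z * σ.D i (zeII L u s) z := by ring
      _ = _ := h1.symm
      _ = L * gII u s z * ((σ.D i u z - Real.exp (u z) * σ.D i s z) /
          (1 + Real.exp (u z) * s z)) := by ring
      _ = _ := by rw [← h3]; ring
  have h5 := mul_left_cancel₀ hp.ne' h4
  linarith

/-- The bound of the derivative. -/
theorem zeII_le (hU : IsOpen U) (hL : 0 < L) (hu : Sm U u) (hs : Sm U s)
    (h0 : ∀ z ∈ U, 0 ≤ s z) (hz : z ∈ U) (σ : Sl E κ) (hr : 0 ≤ r) (hr1 : r ≤ 1)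
    (hA : 0 ≤ A) (e : s z = r ^ 2) (i : κ) (h1 : |σ.D i u z| ≤ A)
    (h2 : |σ.D i s z| ≤ 2 * A * r) :
    (r ^ 2 * σ.D i (zeII L u s) z) ^ 2 ≤ A ^ 2 * (zeII L u s z ^ 2 * r ^ 2) := by
  have hd := den_pos (u := u) (h0 z hz)
  have hE := Real.exp_pos (u z)
  rw [zeII_D hU hL hu hs h0 hz]
  have k1 : |r * (σ.D i u z - Real.exp (u z) * σ.D i s z) / (1 + Real.exp (u z) * s z)| ≤
      2 * A := by
    rw [abs_div, abs_of_pos hd, div_le_iff₀ hd, abs_mul, abs_of_nonneg hr]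
    have k2 : |σ.D i u z - Real.exp (u z) * σ.D i s z| ≤ A + Real.exp (u z) * (2 * A * r) := by
      refine (abs_sub _ _).trans (add_le_add h1 ?_)
      rw [abs_mul, abs_of_pos hE]
      gcongr
    calc r * |σ.D i u z - Real.exp (u z) * σ.D i s z| ≤
          r * (A + Real.exp (u z) * (2 * A * r)) := by gcongr
      _ = r * A + 2 * A * (Real.exp (u z) * r ^ 2) := by ring
      _ ≤ 1 * A + 2 * A * (Real.exp (u z) * r ^ 2) := by gcongr
      _ ≤ 2 * A * (1 + Real.exp (u z) * s z) := by rw [e]; linarith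
  have k3 : r ^ 2 * (1 / 2 * zeII L u s z *
      ((σ.D i u z - Real.exp (u z) * σ.D i s z) / (1 + Real.exp (u z) * s z))) =
      1 / 2 * (zeII L u s z * r) *
      (r * (σ.D i u z - Real.exp (u z) * σ.D i s z) / (1 + Real.exp (u z) * s z)) := by ring
  rw [k3, mul_pow, mul_pow]
  have k4 : (r * (σ.D i u z - Real.exp (u z) * σ.D i s z) / (1 + Real.exp (u z) * s z)) ^ 2 ≤
      (2 * A) ^ 2 := by
    rw [← sq_abs]
    exact pow_le_pow_left₀ (abs_nonneg _) k1 2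
  have k5 : 0 ≤ (1 / 2 : ℝ) ^ 2 * (zeII L u s z * r) ^ 2 := by positivity
  calc _ ≤ (1 / 2 : ℝ) ^ 2 * (zeII L u s z * r) ^ 2 * (2 * A) ^ 2 := by gcongr
    _ = _ := by ring

/-- **The structure `Ze` of helper814.** -/
theorem ze_of (hU : IsOpen U) (hL : 0 < L) (hu : Sm U u) (hs : Sm U s)
    (h0 : ∀ z ∈ U, 0 ≤ s z) (hz : z ∈ U) (hr : 0 ≤ r) (hr1 : r ≤ 1)
    (hA : 0 ≤ A) (e : s z = r ^ 2) (u1 : ∀ i, |σ.D i u z| ≤ A) (u2 : ∀ i, |τ.D i u z| ≤ A)
    (s1 : ∀ i, |σ.D i s z| ≤ 2 * A * r) (s2 : ∀ i, |τ.D i s z| ≤ 2 * A * r) :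
    Ze σ τ U (zeII L u s) r (zeII L u s z ^ 2 * r ^ 2) A z where
  hζ := zeII_sm hU hL hu hs h0
  A0 := hA
  e := rfl
  d1 i := zeII_le hU hL hu hs h0 hz σ hr hr1 hA e i (u1 i) (s1 i)
  d2 i := zeII_le hU hL hu hs h0 hz τ hr hr1 hA e i (u2 i) (s2 i)

omit [NormedAddCommGroup E] [NormedSpace ℝ E] in
/-- `λ = 4 L m / (1 + m)`. -/
theorem lam_eq (hL : 0 ≤ L) (h : 0 ≤ s z) (e : s z = r ^ 2) : zeII L u s z ^ 2 * r ^ 2 =
    4 * L * (Real.exp (u z) * s z / (1 + Real.exp (u z) * s z)) := by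
  rw [zeII_sq hL h, ← e, mul_assoc, gII_mul h]
  ring

omit [NormedAddCommGroup E] [NormedSpace ℝ E] in
theorem lam_le (hL : 0 ≤ L) (h : 0 ≤ s z) (e : s z = r ^ 2) :
    zeII L u s z ^ 2 * r ^ 2 ≤ 4 * L := by
  rw [zeII_sq hL h, ← e, mul_assoc]
  have := gII_le (u := u) h
  nlinarith

/-- The same with `ρ = s / 2`. -/
theorem ze_of' {ρ : E → ℝ} (hU : IsOpen U) (hL : 0 < L) (hu : Sm U u) (hs : Sm U ρ)
    (h0 : ∀ z ∈ U, 0 ≤ ρ z) (hz : z ∈ U) (hr : 0 ≤ r) (hr1 : r ≤ 1)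
    (hA : 0 ≤ A) (e : 2 * ρ z = r ^ 2) (u1 : ∀ i, |σ.D i u z| ≤ A) (u2 : ∀ i, |τ.D i u z| ≤ A)
    (s1 : ∀ i, |σ.D i ρ z| ≤ A * r) (s2 : ∀ i, |τ.D i ρ z| ≤ A * r) :
    Ze σ τ U (zeII L u fun z => 2 * ρ z) r (zeII L u (fun z => 2 * ρ z) z ^ 2 * r ^ 2) A z := by
  refine ze_of hU hL hu (contDiffOn_const.mul hs) (fun z hz => ?_) hz hr hr1 hA e u1 u2 ?_ ?_
  · have := h0 z hz
    positivity
  · intro i
    rw [D_cmul σ hU 2 hs i hz, abs_mul, abs_of_pos two_pos]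
    linarith [s1 i]
  · intro i
    rw [D_cmul τ hU 2 hs i hz, abs_mul, abs_of_pos two_pos]
    linarith [s2 i]

end Vale.Agent.P088.R2.H475.Z
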